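import Mathlib

/-! # P198 K/An: holomorphic and antiholomorphic germs -/

namespace Vale.Agent.P198
open Set Metric Filter Topology

/-- Holomorphic or antiholomorphic at a point. -/
def HA (F : ℂ → ℂ) (z : ℂ) : Prop :=
  AnalyticAt ℂ F z ∨ AnalyticAt ℂ (fun w => starRingEnd ℂ (F w)) z

variable {F T f : ℂ → ℂ} {z : ℂ}

theorem conj_conj_KAn (h : AnalyticAt ℂ F (starRingEnd ℂ z)) :
    AnalyticAt ℂ (fun w => starRingEnd ℂ (F (starRingEnd ℂ w))) z := by
  rw [Complex.analyticAt_iff_eventually_differentiableAt] at h ⊢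
  filter_upwards [Complex.continuous_conj.continuousAt.eventually h] with w hw
  exact differentiableAt_conj_conj_iff.2 hw

theorem anti_KAn (hT : AnalyticAt ℂ T (F z)) (hF : AnalyticAt ℂ (fun w => starRingEnd ℂ (F w)) z) :
    AnalyticAt ℂ (fun w => starRingEnd ℂ (T (F w))) z := by
  have h1 := conj_conj_KAn (F := T) (z := starRingEnd ℂ (F z)) (by rwa [Complex.conj_conj])
  have h2 := h1.comp (f := fun w => starRingEnd ℂ (F w)) hF
  simpa only [Function.comp_def, Complex.conj_conj] using h2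

theorem anti_anti_KAn (hT : AnalyticAt ℂ (fun w => starRingEnd ℂ (T w)) (F z))
    (hF : AnalyticAt ℂ (fun w => starRingEnd ℂ (F w)) z) : AnalyticAt ℂ (fun w => T (F w)) z := by
  simpa only [Complex.conj_conj] using anti_KAn hT hF

theorem HA.comp (hT : HA T (F z)) (hF : HA F z) : HA (fun w => T (F w)) z := by
  rcases hT with hT | hT <;> rcases hF with hF | hF
  · exact Or.inl (hT.comp hF)
  · exact Or.inr (anti_KAn hT hF)
  · exact Or.inr (hT.comp hF)
  · exact Or.inl (anti_anti_KAn hT hF)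

theorem HA.congr (h : HA F z) (he : F =ᶠ[𝓝 z] T) : HA T z :=
  h.imp (fun h => h.congr he) fun h => h.congr (he.fun_comp (starRingEnd ℂ))

/-- A locally injective holomorphic function has nonzero derivative. -/
theorem deriv_ne_KAn (hf : AnalyticAt ℂ f z) {N : Set ℂ} (hN : N ∈ 𝓝 z) (hi : InjOn f N) :
    deriv f z ≠ 0 := by
  have hz : z ∈ N := mem_of_mem_nhds hN
  have h0 : ¬ ∀ᶠ w in 𝓝 z, f w - f z = 0 := by
    intro h
    have h1 : ∀ᶠ w in 𝓝[≠] z, w ∈ N ∧ f w - f z = 0 :=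
      ((show ∀ᶠ w in 𝓝 z, w ∈ N from hN).and h).filter_mono nhdsWithin_le_nhds
    obtain ⟨w, ⟨h2, h3⟩, h4⟩ := (h1.and self_mem_nhdsWithin).exists
    exact h4 (hi h2 hz (sub_eq_zero.1 h3))
  obtain ⟨n, g, hg, hg0, he⟩ :=
    (hf.sub analyticAt_const).exists_eventuallyEq_pow_smul_nonzero_iff.2 h0
  simp only [Pi.sub_apply, smul_eq_mul] at he
  have hn0 : n ≠ 0 := by
    rintro rfl
    have := he.self_of_nhds
    rw [sub_self, pow_zero, one_mul] at this
    exact hg0 this.symm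
  have hd : ∀ h : ℂ → ℂ, AnalyticAt ℂ h z → HasDerivAt (fun w => (w - z) * h w) (h z) z := by
    intro h hh
    have := ((hasDerivAt_id z).sub_const z).fun_mul hh.differentiableAt.hasDerivAt
    simpa only [id, sub_self, zero_mul, one_mul, add_zero] using this
  rcases (Nat.one_le_iff_ne_zero.2 hn0).eq_or_lt with rfl | hn
  · have h1 : HasDerivAt f (g z) z := by
      refine ((hd g hg).add_const (f z)).congr_of_eventuallyEq (he.mono fun w hw => ?_)
      rw [pow_one] at hw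
      exact eq_add_of_sub_eq hw
    rwa [h1.deriv]
  exfalso
  obtain ⟨c, hc⟩ := IsAlgClosed.exists_pow_nat_eq (g z) (Nat.pos_of_ne_zero hn0)
  have hc0 : c ≠ 0 := by
    rintro rfl
    rw [zero_pow hn0] at hc
    exact hg0 hc.symm
  obtain ⟨h, hh, hp, hh0⟩ : ∃ h : ℂ → ℂ, AnalyticAt ℂ h z ∧ (∀ᶠ w in 𝓝 z, h w ^ n = g w) ∧
      h z ≠ 0 := by
    refine ⟨fun w => c * Complex.exp (Complex.log (g w / g z) / n),
      analyticAt_const.mul (((hg.div_const (c := g z)).clog (by
        rw [div_self hg0]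
        exact Complex.one_mem_slitPlane)).div_const (c := (n : ℂ))).cexp', ?_,
      mul_ne_zero hc0 (Complex.exp_ne_zero _)⟩
    filter_upwards [hg.continuousAt.eventually_ne hg0] with w hw
    rw [mul_pow, hc, ← Complex.exp_nat_mul, mul_div_cancel₀ _ (Nat.cast_ne_zero.2 hn0),
      Complex.exp_log (div_ne_zero hw hg0), mul_div_cancel₀ _ hg0]
  have hu : AnalyticAt ℂ (fun w => (w - z) * h w) z := (analyticAt_id.sub analyticAt_const).mul hh
  have hm := hu.hasStrictDerivAt.map_nhds_eq (by rwa [(hd h hh).deriv])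
  rw [sub_self, zero_mul] at hm
  have h1 : ∀ᶠ t in 𝓝 (0 : ℂ), ∃ w ∈ N, f w - f z = t ^ n ∧ (w - z) * h w = t := by
    rw [← hm, eventually_map]
    filter_upwards [hN, he, hp] with w h1 h2 h3
    exact ⟨w, h1, by rw [h2, mul_pow, h3], rfl⟩
  have hω := Complex.isPrimitiveRoot_exp n hn0
  generalize Complex.exp (2 * Real.pi * Complex.I / n) = ω at hω
  have h2 : Tendsto (fun t : ℂ => ω * t) (𝓝 0) (𝓝 0) :=
    (continuous_const.mul continuous_id).tendsto' 0 0 (mul_zero ω)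
  obtain ⟨t, ⟨⟨w₁, h3, h4, h5⟩, w₂, h6, h7, h8⟩, ht⟩ := (((h1.and (h2.eventually h1)).filter_mono
    nhdsWithin_le_nhds).and (self_mem_nhdsWithin (s := {(0 : ℂ)}ᶜ))).exists
  rw [mul_pow, hω.pow_eq_one, one_mul, ← h4, sub_left_inj] at h7
  rw [hi h6 h3 h7, h5] at h8
  exact hω.ne_one hn (mul_right_cancel₀ ht (h8.symm.trans (one_mul t).symm))

theorem both_KAn (h1 : AnalyticAt ℂ f z) (h2 : AnalyticAt ℂ (fun w => starRingEnd ℂ (f w)) z) :
    deriv f z = 0 := by
  have e := (Complex.conjCLE.hasFDerivAt.comp z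
    (h1.differentiableAt.hasDerivAt.hasFDerivAt.restrictScalars ℝ)).unique
    (h2.differentiableAt.hasDerivAt.hasFDerivAt.restrictScalars ℝ)
  have e1 := congrArg (fun L : ℂ →L[ℝ] ℂ => L 1) e
  have e2 := congrArg (fun L : ℂ →L[ℝ] ℂ => L Complex.I) e
  simp at e1 e2
  rw [← e1] at e2
  have e3 : Complex.I * starRingEnd ℂ (deriv f z) = 0 := by linear_combination -e2 / 2
  simpa using e3

/-- The type is constant on a connected open set. -/
theorem ha_global {U : Set ℂ} (hU : IsOpen U) (hc : IsPreconnected U) (hi : InjOn T U)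
    (h : ∀ z ∈ U, HA T z) :
    (∀ z ∈ U, AnalyticAt ℂ T z) ∨ ∀ z ∈ U, AnalyticAt ℂ (fun w => starRingEnd ℂ (T w)) z := by
  have := hc.subset_or_subset (hU.inter (isOpen_analyticAt ℂ T))
    (hU.inter (isOpen_analyticAt ℂ fun w => starRingEnd ℂ (T w)))
    (disjoint_left.2 fun z h1 h2 => deriv_ne_KAn h1.2 (hU.mem_nhds h1.1) hi (both_KAn h1.2 h2.2))
    (fun z hz => (h z hz).imp (fun h => ⟨hz, h⟩) fun h => ⟨hz, h⟩)
  exact this.imp (fun h z hz => (h hz).2) fun h z hz => (h hz).2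

end Vale.Agent.P198
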