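import Mathlib

/-! # P198 K/Ko: the Koenigs linearization -/

namespace Vale.Agent.P198
open Set Metric Filter Topology

theorem est_KKo {f : ℂ → ℂ} {w₀ : ℂ} (hf : AnalyticAt ℂ f w₀) (h0 : f w₀ = w₀) {c : ℝ}
    (hc : ‖deriv f w₀‖ < c) : ∃ r > 0, ∃ M : ℝ, DifferentiableOn ℂ f (ball w₀ r) ∧ ∀ z ∈ ball w₀ r,
      ‖f z - w₀‖ ≤ c * ‖z - w₀‖ ∧ ‖f z - w₀ - deriv f w₀ * (z - w₀)‖ ≤ M * ‖z - w₀‖ ^ 2 := by
  obtain ⟨r₀, hr₀, h1⟩ := Metric.eventually_nhds_iff_ball.1 hf.eventually_analyticAt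
  have hd : DifferentiableOn ℂ f (ball w₀ r₀) :=
    fun z hz => (h1 z hz).differentiableAt.differentiableWithinAt
  have hg : DifferentiableAt ℂ (dslope f w₀) w₀ :=
    ((Complex.differentiableOn_dslope (ball_mem_nhds w₀ hr₀)).2 hd).differentiableAt
      (ball_mem_nhds w₀ hr₀)
  obtain ⟨M, hM⟩ := hg.isBigO_sub.bound
  have h2 : ∀ᶠ z in 𝓝 w₀, ‖dslope f w₀ z‖ < c :=
    hg.continuousAt.norm.eventually_lt continuousAt_const (by rwa [dslope_same])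
  obtain ⟨r, hr, h3⟩ := Metric.eventually_nhds_iff_ball.1
    (hf.eventually_analyticAt.and (hM.and h2))
  refine ⟨r, hr, M, fun z hz => (h3 z hz).1.differentiableAt.differentiableWithinAt,
    fun z hz => ?_⟩
  obtain ⟨-, h4, h5⟩ := h3 z hz
  have e : f z - w₀ = dslope f w₀ z * (z - w₀) := by
    rw [mul_comm, ← smul_eq_mul, sub_smul_dslope, h0]
  rw [dslope_same] at h4
  rw [e, ← sub_mul, norm_mul, norm_mul, sq, ← mul_assoc]
  exact ⟨mul_le_mul_of_nonneg_right h5.le (norm_nonneg _),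
    mul_le_mul_of_nonneg_right h4 (norm_nonneg _)⟩

theorem koenigs {f : ℂ → ℂ} {w₀ : ℂ} (hf : AnalyticAt ℂ f w₀) (h0 : f w₀ = w₀)
    (h1 : deriv f w₀ ≠ 0) (h2 : ‖deriv f w₀‖ < 1) : ∃ κ : ℂ → ℂ, AnalyticAt ℂ κ w₀ ∧
      deriv κ w₀ ≠ 0 ∧ ∀ᶠ z in 𝓝 w₀, κ (f z) = deriv f w₀ * κ z := by
  have hl : 0 < ‖deriv f w₀‖ := norm_pos_iff.2 h1
  obtain ⟨c, hc1, hc2⟩ := exists_between ((Real.lt_sqrt hl.le).2
    (show ‖deriv f w₀‖ ^ 2 < ‖deriv f w₀‖ by nlinarith))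
  have hc0 : 0 < c := hl.trans hc1
  have hc3 : c ^ 2 < ‖deriv f w₀‖ := (Real.lt_sqrt hc0.le).1 hc2
  have hc4 : c ≤ 1 := by nlinarith
  obtain ⟨r, hr, M₀, hd, hb⟩ := est_KKo hf h0 hc1
  generalize deriv f w₀ = l at *
  obtain ⟨M, hM, hM0⟩ : ∃ M : ℝ, M₀ ≤ M ∧ 0 ≤ M := ⟨max M₀ 0, le_max_left _ _, le_max_right _ _⟩
  have hm : MapsTo f (ball w₀ r) (ball w₀ r) := fun z hz => by
    rw [mem_ball_iff_norm] at hz ⊢
    exact ((hb z (mem_ball_iff_norm.2 hz)).1.trans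
      (mul_le_of_le_one_left (norm_nonneg _) hc4)).trans_lt hz
  have hi : ∀ n : ℕ, ∀ z ∈ ball w₀ r, ‖f^[n] z - w₀‖ ≤ c ^ n * ‖z - w₀‖ := by
    intro n z hz
    induction n with
    | zero => simp
    | succ n ih =>
      rw [Function.iterate_succ_apply', pow_succ', mul_assoc]
      exact (hb _ (hm.iterate n hz)).1.trans (mul_le_mul_of_nonneg_left ih hc0.le)
  obtain ⟨D, hD⟩ : ∃ D : ℕ → ℂ → ℂ, ∀ n z,
      D n z = (l ^ (n + 1))⁻¹ * (f (f^[n] z) - w₀ - l * (f^[n] z - w₀)) := ⟨_, fun _ _ => rfl⟩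
  have hρ0 : 0 ≤ c ^ 2 / ‖l‖ := by positivity
  have hρ1 : c ^ 2 / ‖l‖ < 1 := (div_lt_one hl).2 hc3
  have hDb : ∀ n, ∀ z ∈ ball w₀ r, ‖D n z‖ ≤ M / ‖l‖ * ‖z - w₀‖ ^ 2 * (c ^ 2 / ‖l‖) ^ n := by
    intro n z hz
    have h3 : ‖f (f^[n] z) - w₀ - l * (f^[n] z - w₀)‖ ≤ M * (c ^ n * ‖z - w₀‖) ^ 2 :=
      (hb _ (hm.iterate n hz)).2.trans (mul_le_mul hM
        (pow_le_pow_left₀ (norm_nonneg _) (hi n z hz) 2) (by positivity) hM0)
    rw [hD, norm_mul, norm_inv, norm_pow]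
    refine (mul_le_mul_of_nonneg_left h3 (by positivity)).trans_eq ?_
    rw [div_pow, ← pow_mul, mul_pow, ← pow_mul, mul_comm n 2]
    field_simp
    ring
  have hs : ∀ a : ℝ, HasSum (fun n : ℕ => a * (c ^ 2 / ‖l‖) ^ n) (a * (1 - c ^ 2 / ‖l‖)⁻¹) :=
    fun a => (hasSum_geometric_of_lt_one hρ0 hρ1).mul_left a
  have hE : DifferentiableOn ℂ (fun z => ∑' n, D n z) (ball w₀ r) := by
    refine Complex.differentiableOn_tsum_of_summable_norm (hs (M / ‖l‖ * r ^ 2)).summable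
      (fun n => ?_) isOpen_ball fun n z hz => (hDb n z hz).trans ?_
    · have h3 : DifferentiableOn ℂ f^[n] (ball w₀ r) := hd.iterate hm n
      rw [show D n = _ from funext (hD n)]
      exact (((hd.comp h3 (hm.iterate n)).sub_const w₀).sub
        ((h3.sub_const w₀).const_mul l)).const_mul _
    · have := (mem_ball_iff_norm.1 hz).le
      gcongr
  have hE0 : HasFDerivAt (fun z => ∑' n, D n z) (0 : ℂ →L[ℂ] ℂ) w₀ := by
    refine Asymptotics.IsBigO.hasFDerivAt (n := 2) (Asymptotics.IsBigO.of_bound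
      (M / ‖l‖ * (1 - c ^ 2 / ‖l‖)⁻¹) ?_) one_lt_two
    filter_upwards [ball_mem_nhds w₀ hr] with z hz
    refine (tsum_of_norm_bounded (hs _) fun n => hDb n z hz).trans_eq ?_
    rw [Real.norm_of_nonneg (by positivity)]
    ring
  refine ⟨fun z => z - w₀ + ∑' n, D n z, (analyticAt_id.sub analyticAt_const).add
    (hE.analyticAt (ball_mem_nhds w₀ hr)), ?_, ?_⟩
  · have h3 := ((hasDerivAt_id w₀).sub_const w₀).fun_add hE0.hasDerivAt
    simp only [id, zero_apply, add_zero] at h3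
    rw [h3.deriv]
    exact one_ne_zero
  · filter_upwards [ball_mem_nhds w₀ hr] with z hz
    have h3 : Summable fun n => D n z := Summable.of_norm_bounded (hs _).summable fun n => hDb n z hz
    have h4 : ∀ n, D n (f z) = l * D (n + 1) z := fun n => by
      rw [hD, hD, Function.iterate_succ_apply, pow_succ l (n + 1)]
      field_simp
    simp only [h4]
    rw [h3.tsum_eq_zero_add, tsum_mul_left, hD 0 z, Function.iterate_zero_apply]
    field_simp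
    ring

end Vale.Agent.P198
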