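import Vale.Agent.P198.K.Mo
import Vale.Agent.P198.K.Ko

/-! # P198 K/Ch: charts, the linearizing chart at an attracting fixed point -/

namespace Vale.Agent.P198
open Set Metric Filter Topology

/-- A chart defined on `V` only. -/
structure Ch (G : Type) {Z : Type} [Group G] [MetricSpace Z] [MulAction G Z] (V : Set Z)
    (φ : Z → ℂ) : Prop where
  op : IsOpen V
  inj : InjOn φ V
  nhds : ∀ ξ ∈ V, map φ (𝓝 ξ) = 𝓝 (φ ξ)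
  tr : ∀ (g : G), ∀ ξ ∈ V, g • ξ ∈ V → ∃ F : ℂ → ℂ, HA F (φ ξ) ∧ ∀ᶠ ζ in 𝓝 ξ, φ (g • ζ) = F (φ ζ)

variable {G Z : Type} [Group G] [MetricSpace Z] [MulAction G Z] {V : Set Z} {φ : Z → ℂ}

theorem Ch.cont (h : Ch G V φ) {ξ : Z} (hξ : ξ ∈ V) : ContinuousAt φ ξ := (h.nhds ξ hξ).le

theorem Ch.inv (h : Ch G V φ) (α : Z) : ∃ ψ : ℂ → Z, ∀ ξ ∈ V, ψ (φ ξ) = ξ :=
  haveI : Nonempty Z := ⟨α⟩
  ⟨Function.invFunOn φ V, fun _ hξ => h.inj.leftInvOn_invFunOn hξ⟩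

theorem Ch.inv_cont (h : Ch G V φ) {ψ : ℂ → Z} (hψ : ∀ ξ ∈ V, ψ (φ ξ) = ξ) {ξ : Z} (hξ : ξ ∈ V) :
    ContinuousAt ψ (φ ξ) := by
  rw [ContinuousAt, hψ ξ hξ, ← h.nhds ξ hξ, tendsto_map'_iff]
  refine tendsto_id.congr' ?_
  filter_upwards [h.op.mem_nhds hξ] with ζ hζ using (hψ ζ hζ).symm

theorem Ch.ha (h : Ch G V φ) {ψ : ℂ → Z} (hψ : ∀ ξ ∈ V, ψ (φ ξ) = ξ) (g : G) {ξ : Z} (hξ : ξ ∈ V)
    (hg : g • ξ ∈ V) : HA (fun z => φ (g • ψ z)) (φ ξ) := by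
  obtain ⟨F, hF, he⟩ := h.tr g ξ hξ hg
  refine hF.congr ?_
  rw [← h.nhds ξ hξ, EventuallyEq, eventually_map]
  filter_upwards [he, h.op.mem_nhds hξ] with ζ h1 h2
  rw [hψ ζ h2, h1]

/-- Composition with a local biholomorphism. -/
theorem Ch.comp (h : Ch G V φ) {α : Z} (hα : α ∈ V) {k : ℂ → ℂ} (hk : AnalyticAt ℂ k (φ α))
    (hd : deriv k (φ α) ≠ 0) : ∃ V', α ∈ V' ∧ Ch G V' fun ξ => k (φ ξ) := by
  obtain ⟨U, hU, hUo, hUα⟩ := _root_.eventually_nhds_iff.1 (hk.eventually_analyticAt.and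
    ((hk.deriv.continuousAt.eventually_ne hd).and (hk.hasStrictDerivAt.eventually_left_inverse hd)))
  refine ⟨V ∩ φ ⁻¹' U, ⟨hα, hUα⟩, ContinuousOn.isOpen_inter_preimage
    (fun ξ hξ => (h.cont hξ).continuousWithinAt) h.op hUo, fun ξ hξ ζ hζ e => ?_,
    fun ξ hξ => ?_, fun g ξ hξ hg => ?_⟩
  · refine h.inj hξ.1 hζ.1 ?_
    rw [← (hU _ hξ.2).2.2, ← (hU _ hζ.2).2.2]
    exact congrArg _ e
  · rw [← (hU _ hξ.2).1.hasStrictDerivAt.map_nhds_eq (hU _ hξ.2).2.1, ← h.nhds ξ hξ.1, map_map]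
    rfl
  · obtain ⟨F, hF, he⟩ := h.tr g ξ hξ.1 hg.1
    obtain ⟨h1, h2, -⟩ := hU _ hξ.2
    have h3 := h1.hasStrictDerivAt.eventually_left_inverse h2
    have h4 := h1.analyticAt_localInverse h2
    generalize h1.hasStrictDerivAt.localInverse k _ _ h2 = ι at h3 h4
    refine ⟨fun z => k (F (ι z)), HA.comp (F := fun z => F (ι z)) (Or.inl ?_)
      (HA.comp (by rwa [h3.self_of_nhds]) (Or.inl h4)), ?_⟩
    · rw [h3.self_of_nhds, ← he.self_of_nhds]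
      exact (hU _ hg.2).1
    · filter_upwards [he, (h.cont hξ.1).eventually h3] with ζ h5 h6
      rw [h6, h5]

/-- North-south dynamics. -/
def NS (γ : G) (α β : Z) : Prop :=
  α ≠ β ∧ γ • α = α ∧ γ • β = β ∧
    ∀ ε > 0, ∀ N ∈ 𝓝 α, ∀ᶠ n : ℕ in atTop, ∀ ξ, ε ≤ dist ξ β → γ ^ n • ξ ∈ N

omit [MetricSpace Z] in
theorem fix_pow_KCh {γ : G} {α : Z} (h : γ • α = α) (n : ℕ) : γ ^ n • α = α := by
  induction n with
  | zero => rw [pow_zero, one_smul]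
  | succ n ih => rw [pow_succ, mul_smul, h, ih]

theorem NS.pow {γ : G} {α β : Z} (h : NS γ α β) {m : ℕ} (hm : 0 < m) : NS (γ ^ m) α β := by
  refine ⟨h.1, fix_pow_KCh h.2.1 m, fix_pow_KCh h.2.2.1 m, fun ε hε N hN => ?_⟩
  simp only [← pow_mul]
  exact (tendsto_id.const_mul_atTop' hm).eventually (h.2.2.2 ε hε N hN)

/-- An iterate is a holomorphic contraction. -/
theorem Ch.contr (h : Ch G V φ) {γ : G} {α β : Z} (hα : α ∈ V) (hγ : NS γ α β) :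
    ∃ m, 0 < m ∧ ∃ f : ℂ → ℂ, AnalyticAt ℂ f (φ α) ∧ f (φ α) = φ α ∧ deriv f (φ α) ≠ 0 ∧
      ‖deriv f (φ α)‖ < 1 ∧ ∀ᶠ ξ in 𝓝 α, φ (γ ^ m • ξ) = f (φ ξ) := by
  obtain ⟨ψ, hψ⟩ := h.inv α
  have hd : 0 < dist α β := dist_pos.2 hγ.1
  have h0 : ∀ᶠ ξ in 𝓝 α, ξ ∈ V ∧ dist α β / 2 ≤ dist ξ β :=
    (show ∀ᶠ ξ in 𝓝 α, ξ ∈ V from h.op.mem_nhds hα).and
      (((continuous_id.dist continuous_const).tendsto α).eventually_const_le (half_lt_self hd))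
  have h1 : ∀ᶠ z in 𝓝 (φ α), ∃ ξ, (ξ ∈ V ∧ dist α β / 2 ≤ dist ξ β) ∧ φ ξ = z := by
    rw [← h.nhds α hα, eventually_map]
    exact h0.mono fun ξ hξ => ⟨ξ, hξ, rfl⟩
  obtain ⟨R, hR, h2⟩ := Metric.eventually_nhds_iff_ball.1 h1
  obtain ⟨n, h3, hn⟩ := ((hγ.2.2.2 _ (half_pos hd) _ (inter_mem (h.op.mem_nhds hα)
    ((h.cont hα).preimage_mem_nhds (ball_mem_nhds _ (half_pos hR))))).and
      (eventually_gt_atTop 0)).exists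
  obtain ⟨F, hF⟩ : ∃ F : ℂ → ℂ, F = fun z => φ (γ ^ n • ψ z) := ⟨_, rfl⟩
  have h4 : ∀ ξ ∈ V, F (φ ξ) = φ (γ ^ n • ξ) := fun ξ hξ => by rw [hF]; simp only [hψ ξ hξ]
  have hm : MapsTo F (ball (φ α) R) (ball (φ α) (R / 2)) := fun z hz => by
    obtain ⟨ξ, hξ, rfl⟩ := h2 z hz
    rw [h4 ξ hξ.1]
    exact (h3 ξ hξ.2).2
  have hm' : MapsTo F (ball (φ α) R) (ball (φ α) R) :=
    hm.mono_right (ball_subset_ball (half_le_self hR.le))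
  have hi : InjOn F (ball (φ α) R) := fun z hz w hw e => by
    obtain ⟨ξ, hξ, rfl⟩ := h2 z hz
    obtain ⟨ζ, hζ, rfl⟩ := h2 w hw
    rw [h4 ξ hξ.1, h4 ζ hζ.1] at e
    rw [smul_left_cancel _ (h.inj (h3 ξ hξ.2).1 (h3 ζ hζ.2).1 e)]
  have ha : ∀ z ∈ ball (φ α) R, AnalyticAt ℂ (fun w => F (F w)) z := by
    intro z hz
    rcases ha_global isOpen_ball (convex_ball _ _).isPreconnected hi (fun z hz => by
      obtain ⟨ξ, hξ, rfl⟩ := h2 z hz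
      rw [hF]
      exact h.ha hψ _ hξ.1 (h3 ξ hξ.2).1) with h5 | h5
    · exact (h5 _ (hm' hz)).comp (h5 z hz)
    · exact anti_anti_KAn (h5 _ (hm' hz)) (h5 z hz)
  have h5 : F (φ α) = φ α := by rw [h4 α hα, fix_pow_KCh hγ.2.1]
  have h6 : F (F (φ α)) = φ α := by rw [h5, h5]
  refine ⟨n + n, Nat.add_pos_left hn n, fun w => F (F w), ha _ (mem_ball_self hR), h6,
    deriv_ne_KAn (ha _ (mem_ball_self hR)) (ball_mem_nhds _ hR) (hi.comp hi hm'), ?_, ?_⟩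
  · refine (Complex.norm_deriv_le_div_of_mapsTo_ball (R₂ := R / 2)
      (fun z hz => (ha z hz).differentiableAt.differentiableWithinAt) (fun z hz => ?_) hR).trans_lt
      ((div_lt_one hR).2 (half_lt_self hR))
    rw [h6]
    exact ball_subset_closedBall (hm (hm' hz))
  · filter_upwards [h0] with ξ hξ
    rw [h4 ξ hξ.1, h4 _ (h3 ξ hξ.2).1, pow_add, mul_smul]

/-- The linearizing chart. -/
theorem Ch.lin (h : Ch G V φ) {γ : G} {α β : Z} (hα : α ∈ V) (hγ : NS γ α β) :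
    ∃ (δ : G) (V' : Set Z) (k : Z → ℂ) (l : ℂ), NS δ α β ∧ α ∈ V' ∧ Ch G V' k ∧ l ≠ 0 ∧ ‖l‖ < 1 ∧
      ∀ᶠ ξ in 𝓝 α, k (δ • ξ) = l * k ξ := by
  obtain ⟨m, hm, f, h1, h2, h3, h4, h5⟩ := h.contr hα hγ
  obtain ⟨k, h6, h7, h8⟩ := koenigs h1 h2 h3 h4
  obtain ⟨V', h9, h10⟩ := h.comp hα h6 h7
  refine ⟨γ ^ m, V', _, _, hγ.pow hm, h9, h10, h3, h4, ?_⟩
  filter_upwards [h5, (h.cont hα).eventually h8] with ξ e1 e2
  rw [e1, e2]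

end Vale.Agent.P198
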