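import Vale.Agent.P198.K.Ch
import Vale.Agent.P198.Base

/-! # P198 K/Gl: the global coordinate -/

namespace Vale.Agent.P198
open Set Metric Filter Topology

variable {G Z : Type} [Group G] [MetricSpace Z] [MulAction G Z] [ContinuousConstSMul G Z]
  {V : Set Z} {φ : Z → ℂ}

theorem Ch.glob (h : Ch G V φ) {γ : G} {α β : Z} (hα : α ∈ V) (hγ : NS γ α β) {l : ℂ} (h0 : l ≠ 0)
    (h1 : ‖l‖ < 1) (he : ∀ᶠ ξ in 𝓝 α, φ (γ • ξ) = l * φ ξ) :
    ∃ κ : Z → ℂ, Ch G {β}ᶜ κ ∧ ∀ w, ∃ ξ, ξ ≠ β ∧ κ ξ = w := by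
  obtain ⟨κ, key⟩ : ∃ κ : Z → ℂ, ∀ ξ ≠ β, ∀ᶠ n : ℕ in atTop, ∀ᶠ ζ in 𝓝 ξ,
      γ ^ n • ζ ∈ V ∧ κ ζ = (l ^ n)⁻¹ * φ (γ ^ n • ζ) := by
    refine ⟨fun ξ => limUnder atTop fun n : ℕ => (l ^ n)⁻¹ * φ (γ ^ n • ξ), fun ξ hξ => ?_⟩
    have hd : 0 < dist ξ β := dist_pos.2 hξ
    obtain ⟨n₀, hn₀⟩ := eventually_atTop.1
      (hγ.2.2.2 _ (half_pos hd) _ (inter_mem (h.op.mem_nhds hα) he))
    filter_upwards [eventually_ge_atTop n₀] with n hn
    filter_upwards [((continuous_id.dist continuous_const).tendsto ξ).eventually_const_le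
      (half_lt_self hd)] with ζ hζ
    refine ⟨(hn₀ n hn ζ hζ).1, Tendsto.limUnder_eq (tendsto_const_nhds.congr' ?_)⟩
    filter_upwards [eventually_ge_atTop n] with m hm
    induction m, hm using Nat.le_induction with
    | base => rfl
    | succ m hm ih =>
      have h2 : φ (γ • γ ^ m • ζ) = l * φ (γ ^ m • ζ) := (hn₀ m (hn.trans hm) ζ hζ).2
      rw [ih, pow_succ' γ, mul_smul, h2, pow_succ]
      field_simp
  have hl : ∀ n : ℕ, (l ^ n)⁻¹ ≠ 0 := fun n => inv_ne_zero (pow_ne_zero n h0)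
  have hch : Ch G {β}ᶜ κ := by
    refine ⟨isOpen_compl_singleton, fun ξ hξ ζ hζ e => ?_, fun ξ hξ => ?_, fun g ξ hξ hg => ?_⟩
    · obtain ⟨n, h2, h3⟩ := ((key ξ hξ).and (key ζ hζ)).exists
      rw [h2.self_of_nhds.2, h3.self_of_nhds.2] at e
      exact smul_left_cancel _
        (h.inj h2.self_of_nhds.1 h3.self_of_nhds.1 (mul_left_cancel₀ (hl n) e))
    · obtain ⟨n, h2⟩ := (key ξ hξ).exists
      rw [map_congr (h2.mono fun ζ hζ => hζ.2), h2.self_of_nhds.2, ← map_mul_left_nhds₀ (hl n),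
        ← h.nhds _ h2.self_of_nhds.1]
      have h3 : map (fun ζ => γ ^ n • ζ) (𝓝 ξ) = 𝓝 (γ ^ n • ξ) :=
        (Homeomorph.smul (γ ^ n)).map_nhds_eq ξ
      rw [← h3, map_map, map_map]
      rfl
    · obtain ⟨n, h2, h3⟩ := ((key ξ hξ).and (key _ hg)).exists
      have e : ∀ ζ : Z, (γ ^ n * g * (γ ^ n)⁻¹) • γ ^ n • ζ = γ ^ n • g • ζ := fun ζ => by
        rw [mul_smul, mul_smul, inv_smul_smul]
      obtain ⟨F, hF, h4⟩ := h.tr (γ ^ n * g * (γ ^ n)⁻¹) _ h2.self_of_nhds.1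
        (by rw [e]; exact h3.self_of_nhds.1)
      refine ⟨fun z => (l ^ n)⁻¹ * F (l ^ n * z),
        HA.comp (T := fun z => (l ^ n)⁻¹ * z) (F := fun z => F (l ^ n * z))
          (Or.inl (analyticAt_const.mul analyticAt_id)) (HA.comp (F := fun z => l ^ n * z) ?_
            (Or.inl (analyticAt_const.mul analyticAt_id))), ?_⟩
      · rwa [h2.self_of_nhds.2, mul_inv_cancel_left₀ (pow_ne_zero n h0)]
      · filter_upwards [h2, ((continuous_const_smul g).tendsto ξ).eventually h3,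
          ((continuous_const_smul (γ ^ n)).tendsto ξ).eventually h4] with ζ h5 h6 h7
        rw [h6.2, h5.2, mul_inv_cancel_left₀ (pow_ne_zero n h0), ← h7, e]
  have hne : ∀ ξ ≠ β, γ • ξ ≠ β := fun ξ hξ e => hξ (smul_left_cancel γ (e.trans hγ.2.2.1.symm))
  have hf : ∀ ξ ≠ β, κ (γ • ξ) = l * κ ξ := by
    intro ξ hξ
    obtain ⟨n, h2, h3⟩ := ((key _ (hne ξ hξ)).and
      ((tendsto_add_atTop_nat 1).eventually (key ξ hξ))).exists
    rw [h2.self_of_nhds.2, h3.self_of_nhds.2, pow_succ γ, mul_smul, pow_succ]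
    field_simp
  have hz : κ α = 0 := by
    have h2 := hf α hγ.1
    rw [hγ.2.1] at h2
    by_contra h3
    have h4 : l = 1 := mul_right_cancel₀ h3 (h2.symm.trans (one_mul _).symm)
    rw [h4, norm_one] at h1
    exact lt_irrefl _ h1
  have hs : ∀ (n : ℕ) (w : ℂ), (∃ ξ, ξ ≠ β ∧ κ ξ = l ^ n * w) → ∃ ξ, ξ ≠ β ∧ κ ξ = w := by
    intro n
    induction n with
    | zero => intro w hw; rwa [pow_zero, one_mul] at hw
    | succ n ih =>
      rintro w ⟨ξ, h2, h3⟩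
      have h4 : γ⁻¹ • ξ ≠ β := fun e => h2 (by rw [← hγ.2.2.1, ← e, smul_inv_smul])
      have h5 := hf _ h4
      rw [smul_inv_smul, h3, pow_succ', mul_assoc] at h5
      exact ih w ⟨_, h4, (mul_left_cancel₀ h0 h5).symm⟩
  refine ⟨κ, hch, fun w => ?_⟩
  have h2 : ∀ᶠ z in 𝓝 (0 : ℂ), ∃ ξ, ξ ≠ β ∧ κ ξ = z := by
    rw [← hz, ← hch.nhds α hγ.1, eventually_map]
    exact (eventually_ne_nhds hγ.1).mono fun ξ hξ => ⟨ξ, hξ, rfl⟩
  have h3 := (tendsto_pow_atTop_nhds_zero_of_norm_lt_one h1).mul_const w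
  rw [zero_mul] at h3
  obtain ⟨n, hn⟩ := (h3.eventually h2).exists
  exact hs n w hn

theorem smul_ne_KGl (g : G) (ξ : Z) : Tendsto (fun ζ => g • ζ) (𝓝[≠] ξ) (𝓝[≠] (g • ξ)) :=
  tendsto_nhdsWithin_iff.2 ⟨((continuous_const_smul g).tendsto ξ).mono_left nhdsWithin_le_nhds,
    eventually_mem_nhdsWithin.mono fun _ hζ e => hζ (smul_left_cancel g e)⟩

theorem Ch.mob [CompactSpace Z] {η : Z} {κ : Z → ℂ} (h : Ch G {η}ᶜ κ)
    (hs : ∀ w, ∃ ξ, ξ ≠ η ∧ κ ξ = w) : Mob G η κ := by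
  obtain ⟨ψ, hψ⟩ := h.inv η
  have h1 : ∀ z, ψ z ≠ η ∧ κ (ψ z) = z := fun z => by
    obtain ⟨ξ, hξ, rfl⟩ := hs z
    rw [hψ ξ hξ]
    exact ⟨hξ, rfl⟩
  have h2 : Continuous ψ := continuous_iff_continuousAt.2 fun z => by
    have := h.inv_cont hψ (h1 z).1
    rwa [(h1 z).2] at this
  have hc : ContinuousOn κ {η}ᶜ := fun ξ hξ => (h.cont hξ).continuousWithinAt
  have hinf : Tendsto κ (𝓝[≠] η) (cocompact ℂ) := by
    refine hasBasis_cocompact.tendsto_right_iff.2 fun K hK => ?_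
    have h3 : (ψ '' K)ᶜ ∈ 𝓝 η := (hK.image h2).isClosed.isOpen_compl.mem_nhds
      fun ⟨z, _, e⟩ => (h1 z).1 e
    filter_upwards [mem_nhdsWithin_of_mem_nhds h3, self_mem_nhdsWithin] with ξ h4 h5 h6
    exact h4 ⟨_, h6, hψ ξ h5⟩
  have hψi : Tendsto ψ (cocompact ℂ) (𝓝[≠] η) := by
    refine tendsto_nhdsWithin_iff.2 ⟨(nhds_basis_opens η).tendsto_right_iff.2 fun N hN => ?_,
      Eventually.of_forall fun z => (h1 z).1⟩
    have h3 : IsCompact (κ '' Nᶜ) := hN.2.isClosed_compl.isCompact.image_of_continuousOn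
      (hc.mono fun ξ hξ e => hξ (by rw [mem_singleton_iff.1 e]; exact hN.1))
    filter_upwards [h3.compl_mem_cocompact] with z hz
    by_contra h4
    exact hz ⟨ψ z, h4, (h1 z).2⟩
  refine ⟨hc, ⟨mapsTo_univ _ _, h.inj, fun w _ => hs w⟩, hinf, fun g => ?_⟩
  obtain ⟨a, b, c, d, h3, σ, h4, h5⟩ := ha_mob (T := fun z => κ (g • ψ z)) (U := {z | g • ψ z ≠ η})
    (fun z hz => by
      have := h.ha hψ g (h1 z).1 hz
      rwa [(h1 z).2] at this)
    (fun z hz w hw e => by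
      rw [← (h1 z).2, ← (h1 w).2, smul_left_cancel g (h.inj hz hw e)])
    (by
      rcases eq_or_ne (g • η) η with hg | hg
      · refine Or.inl ⟨eq_univ_of_forall fun z e => (h1 z).1 (smul_left_cancel g (e.trans hg.symm)),
          hinf.comp ?_⟩
        have := (smul_ne_KGl g η).comp hψi
        rwa [hg] at this
      · have hg' : g⁻¹ • η ≠ η := fun e => hg (inv_smul_eq_iff.1 e).symm
        have e : {z | g • ψ z ≠ η} = {κ (g⁻¹ • η)}ᶜ := by
          ext z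
          refine not_congr ⟨fun e => ?_, fun e => ?_⟩
          · rw [mem_singleton_iff, ← e, inv_smul_smul, (h1 z).2]
          · rw [mem_singleton_iff.1 e, hψ _ hg', smul_inv_smul]
        refine Or.inr ⟨κ (g⁻¹ • η), κ (g • η), e,
          fun z hz e => (h1 z).1 (smul_left_cancel g (h.inj hz hg e)),
          hinf.comp (tendsto_nhdsWithin_iff.2 ⟨?_, ?_⟩), (h.cont hg).tendsto.comp
            (((continuous_const_smul g).tendsto η).comp (hψi.mono_right nhdsWithin_le_nhds))⟩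
        · have := ((continuous_const_smul g).comp h2).tendsto (κ (g⁻¹ • η))
          rw [Function.comp_apply, hψ _ hg', smul_inv_smul] at this
          exact this.mono_left nhdsWithin_le_nhds
        · rw [← e]
          exact eventually_mem_nhdsWithin)
  refine ⟨a, b, c, d, h3, σ, h4, fun ξ h6 h7 => ?_⟩
  have := h5 (κ ξ) (by rwa [mem_ofPred_eq, hψ ξ h6])
  rwa [hψ ξ h6] at this

end Vale.Agent.P198
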