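import Vale.Agent.P198.G.Main
import Vale.Agent.P198.K.Gl

/-! # P198 block K: Koenigs linearization (interface) -/

namespace Vale.Agent.P198
open Set Metric Filter Topology MeasureTheory
variable {G Z : Type} [Group G] [MetricSpace Z] [CompactSpace Z] [MulAction G Z]
  [ContinuousConstSMul G Z]

theorem GP.exists_mob (X : GP G Z) {V : Set Z} {φ : Z → ℂ} (h : Chart G V φ) :
    ∃ (η : Z) (κ : Z → ℂ), Mob G η κ := by
  obtain ⟨γ, α, β, hα, h1, h2, h3, h4⟩ := X.lox h.op h.ne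
  have hγ : NS γ α β := by
    refine ⟨h1, h2, h3, fun ε hε N hN => ?_⟩
    obtain ⟨r, hr, h5⟩ := Metric.nhds_basis_closedBall.mem_iff.1 hN
    filter_upwards [h4 (min ε r) (lt_min hε hr)] with n hn ξ hξ
    exact h5 ((hn ξ ((min_le_left _ _).trans hξ)).trans (min_le_right _ _))
  obtain ⟨δ, V', k, l, h5, h6, h7, h8, h9, h10⟩ :=
    (Ch.mk h.op h.inj h.nhds h.tr : Ch G V φ).lin hα hγ
  obtain ⟨κ, h11, h12⟩ := h7.glob h6 h5 h8 h9 h10
  exact ⟨β, κ, h11.mob h12⟩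

end Vale.Agent.P198
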