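import Vale.Agent.P198.K.An

/-! # P198 K/Mo: injective holomorphic maps of the sphere are Moebius maps -/

namespace Vale.Agent.P198
open Set Metric Filter Topology

variable {T : ℂ → ℂ}

theorem inv_inf_KMo : Tendsto (fun z : ℂ => z⁻¹) (𝓝[≠] 0) (cocompact ℂ) := by
  rw [← Metric.cobounded_eq_cocompact]
  exact tendsto_inv₀_nhdsNE_zero

theorem inv_zero_KMo : Tendsto (fun z : ℂ => z⁻¹) (cocompact ℂ) (𝓝[≠] 0) := by
  rw [← Metric.cobounded_eq_cocompact]
  exact tendsto_inv₀_cobounded'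

theorem linear_KMo (hT : Differentiable ℂ T) (hi : Function.Injective T) (h0 : T 0 = 0)
    (hinf : Tendsto T (cocompact ℂ) (cocompact ℂ)) : ∃ a : ℂ, ∀ z, T z = a * z := by
  have hS0 : (T (0 : ℂ)⁻¹)⁻¹ = 0 := by simp only [inv_zero, h0]
  have hS : AnalyticAt ℂ (fun z : ℂ => (T z⁻¹)⁻¹) 0 := by
    refine Complex.analyticAt_of_differentiable_on_punctured_nhds_of_continuousAt ?_ ?_
    · filter_upwards [self_mem_nhdsWithin] with z hz
      exact ((hT _).comp z (differentiableAt_inv hz)).inv fun h =>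
        inv_ne_zero hz (hi (h.trans h0.symm))
    · rw [← continuousWithinAt_compl_self, ContinuousWithinAt, hS0]
      exact (inv_zero_KMo.mono_right nhdsWithin_le_nhds).comp (hinf.comp inv_inf_KMo)
  have hs := deriv_ne_KAn hS univ_mem
    (inv_injective.comp (hi.comp inv_injective)).injOn
  have h1 := ((hasDerivAt_iff_tendsto_slope.1 hS.differentiableAt.hasDerivAt).comp
    inv_zero_KMo).inv₀ hs
  have h2 : Differentiable ℂ (dslope T 0) := differentiableOn_univ.1
    ((Complex.differentiableOn_dslope univ_mem).2 hT.differentiableOn)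
  have h3 : Tendsto (dslope T 0) (cocompact ℂ) (𝓝 (deriv (fun z : ℂ => (T z⁻¹)⁻¹) 0)⁻¹) := by
    refine h1.congr' ?_
    filter_upwards [inv_zero_KMo.eventually self_mem_nhdsWithin] with w hw
    have hw0 : w ≠ 0 := fun h => hw (by rw [h, inv_zero]; rfl)
    simp only [Function.comp_def, dslope_of_ne _ hw0, slope_def_field, inv_zero, h0, sub_zero,
      inv_inv, div_inv_eq_mul]
    field_simp
  refine ⟨(deriv (fun z : ℂ => (T z⁻¹)⁻¹) 0)⁻¹, fun z => ?_⟩
  have h4 := sub_smul_dslope T 0 z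
  rw [h2.apply_eq_of_tendsto_cocompact z h3, sub_zero, h0, sub_zero, smul_eq_mul] at h4
  rw [← h4, mul_comm]

theorem affine_KMo (hT : Differentiable ℂ T) (hi : Function.Injective T)
    (hinf : Tendsto T (cocompact ℂ) (cocompact ℂ)) : ∃ a b : ℂ, a ≠ 0 ∧ ∀ z, T z = a * z + b := by
  obtain ⟨a, ha⟩ := linear_KMo (T := fun z => T z - T 0) (hT.sub_const _)
    (sub_left_injective.comp hi) (sub_self _)
    ((Homeomorph.subRight (T 0)).isClosedEmbedding.tendsto_cocompact.comp hinf)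
  refine ⟨a, T 0, ?_, fun z => eq_add_of_sub_eq (ha z)⟩
  rintro rfl
  have := ha 1
  rw [zero_mul, sub_eq_zero] at this
  exact one_ne_zero (hi this)

theorem moeb_KMo {p q : ℂ} (hT : ∀ z ≠ p, DifferentiableAt ℂ T z) (hi : InjOn T {p}ᶜ)
    (hq : ∀ z ≠ p, T z ≠ q) (hp : Tendsto T (𝓝[≠] p) (cocompact ℂ))
    (hinf : Tendsto T (cocompact ℂ) (𝓝 q)) :
    ∃ a b c d : ℂ, a * d - b * c ≠ 0 ∧ ∀ z ≠ p, T z * (c * z + d) = a * z + b := by
  classical
  obtain ⟨S, hS, hSp⟩ : ∃ S : ℂ → ℂ, (∀ z ≠ p, S z = (T z - q)⁻¹) ∧ S p = 0 :=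
    ⟨Function.update (fun z => (T z - q)⁻¹) p 0, fun z hz => Function.update_of_ne hz _ _,
      Function.update_self _ _ _⟩
  have h1 : ∀ z ≠ p, DifferentiableAt ℂ S z := fun z hz =>
    (((hT z hz).sub_const q).inv (sub_ne_zero.2 (hq z hz))).congr_of_eventuallyEq
      ((eventually_ne_nhds hz).mono hS)
  have h2 : Differentiable ℂ S := by
    intro z
    rcases eq_or_ne z p with rfl | hz
    · refine (Complex.analyticAt_of_differentiable_on_punctured_nhds_of_continuousAt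
        (eventually_mem_nhdsWithin.mono h1) ?_).differentiableAt
      rw [← continuousWithinAt_compl_self, ContinuousWithinAt, hSp]
      refine ((inv_zero_KMo.mono_right nhdsWithin_le_nhds).comp
        ((Homeomorph.subRight q).isClosedEmbedding.tendsto_cocompact.comp hp)).congr' ?_
      exact eventually_mem_nhdsWithin.mono fun w hw => (hS w hw).symm
    · exact h1 z hz
  have h3 : ∀ z ≠ p, S z ≠ 0 := fun z hz => by
    rw [hS z hz]
    exact inv_ne_zero (sub_ne_zero.2 (hq z hz))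
  have h4 : Function.Injective S := by
    intro z w h
    rcases eq_or_ne z p with rfl | hz <;> rcases eq_or_ne w z with rfl | hw
    · rfl
    · exact absurd (h.symm.trans hSp) (h3 w hw)
    · rfl
    · rcases eq_or_ne w p with rfl | hw'
      · exact absurd (h.trans hSp) (h3 z hz)
      · rw [hS z hz, hS w hw', inv_inj, sub_left_inj] at h
        exact hi hz hw' h
  have h5 : ∀ᶠ z in cocompact ℂ, z ≠ p := isCompact_singleton.compl_mem_cocompact
  have h6 : Tendsto S (cocompact ℂ) (cocompact ℂ) := by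
    refine (inv_inf_KMo.comp (tendsto_nhdsWithin_iff.2 ⟨tendsto_sub_nhds_zero_iff.2 hinf,
      h5.mono fun z hz => sub_ne_zero.2 (hq z hz)⟩)).congr' ?_
    exact h5.mono fun w hw => (hS w hw).symm
  obtain ⟨a, b, ha, h⟩ := affine_KMo h2 h4 h6
  refine ⟨q * a, q * b + 1, a, b, fun h0 => ha (by linear_combination -h0), fun z hz => ?_⟩
  have h7 := mul_inv_cancel₀ (sub_ne_zero.2 (hq z hz))
  rw [← hS z hz, h] at h7
  linear_combination h7

/-- The behaviour at infinity. -/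
def Ends (T : ℂ → ℂ) (U : Set ℂ) : Prop :=
  (U = univ ∧ Tendsto T (cocompact ℂ) (cocompact ℂ)) ∨ ∃ p q : ℂ, U = {p}ᶜ ∧ (∀ z ∈ U, T z ≠ q) ∧
    Tendsto T (𝓝[≠] p) (cocompact ℂ) ∧ Tendsto T (cocompact ℂ) (𝓝 q)

theorem hol_KMo {U : Set ℂ} (hT : ∀ z ∈ U, AnalyticAt ℂ T z) (hi : InjOn T U) (h : Ends T U) :
    ∃ a b c d : ℂ, a * d - b * c ≠ 0 ∧ ∀ z ∈ U, T z * (c * z + d) = a * z + b := by
  rcases h with ⟨rfl, h⟩ | ⟨p, q, rfl, h1, h2, h3⟩
  · obtain ⟨a, b, ha, h⟩ := affine_KMo (fun z => (hT z trivial).differentiableAt)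
      (injOn_univ.1 hi) h
    exact ⟨a, b, 0, 1, by simpa using ha, fun z _ => by rw [h]; ring⟩
  · exact moeb_KMo (fun z hz => (hT z hz).differentiableAt) hi h1 h2 h3

theorem ha_mob {U : Set ℂ} (hT : ∀ z ∈ U, HA T z) (hi : InjOn T U) (h : Ends T U) :
    ∃ a b c d : ℂ, a * d - b * c ≠ 0 ∧ ∃ σ : ℂ →+* ℂ, (σ = RingHom.id ℂ ∨ σ = starRingEnd ℂ) ∧
      ∀ z ∈ U, T z * (c * σ z + d) = a * σ z + b := by
  have hU : IsOpen U ∧ IsPreconnected U := by
    rcases h with ⟨rfl, -⟩ | ⟨p, -, rfl, -⟩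
    · exact ⟨isOpen_univ, isPreconnected_univ⟩
    · exact ⟨isOpen_compl_singleton,
        (isConnected_compl_singleton_of_one_lt_rank (by simp) p).isPreconnected⟩
  rcases ha_global hU.1 hU.2 hi hT with h1 | h1
  · obtain ⟨a, b, c, d, h2, h3⟩ := hol_KMo h1 hi h
    exact ⟨a, b, c, d, h2, _, Or.inl rfl, h3⟩
  · have hc : Tendsto (starRingEnd ℂ) (cocompact ℂ) (cocompact ℂ) :=
      Complex.conjCLE.toHomeomorph.isClosedEmbedding.tendsto_cocompact
    obtain ⟨a, b, c, d, h2, h3⟩ := hol_KMo h1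
      (fun z hz w hw e => hi hz hw ((starRingEnd ℂ).injective e))
      (h.imp (fun h => ⟨h.1, hc.comp h.2⟩) fun ⟨p, q, e, h4, h5, h6⟩ =>
        ⟨p, starRingEnd ℂ q, e, fun z hz e => h4 z hz ((starRingEnd ℂ).injective e), hc.comp h5,
          (Complex.continuous_conj.tendsto q).comp h6⟩)
    refine ⟨starRingEnd ℂ a, starRingEnd ℂ b, starRingEnd ℂ c, starRingEnd ℂ d, ?_, _, Or.inr rfl,
      fun z hz => ?_⟩
    · rw [← map_mul, ← map_mul, ← map_sub]
      exact (map_ne_zero _).2 h2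
    · have := congrArg (starRingEnd ℂ) (h3 z hz)
      simpa only [map_mul, map_add, Complex.conj_conj] using this

end Vale.Agent.P198
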